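import Vale.Agent.P121.Defs
import Vale.Agent.P121.Final

open MeasureTheory
open scoped ENNReal NNReal

namespace Vale.Agent.Results.P121.CoulombMongeFails

open Vale.Agent.P121

/-- In every dimension `d ≥ 2` (in particular for `d = 3`, the question as posed) there is a
compactly supported Borel probability measure with bounded Lebesgue density and finite
three-marginal Coulomb value that admits no optimal Monge plan. -/
theorem result : ∀ d : ℕ, 2 ≤ d →
    ∃ μ : Measure (EuclideanSpace ℝ (Fin d)), IsProbabilityMeasure μ ∧
      μ ≪ volume ∧ (∃ C : ℝ≥0, μ ≤ C • volume) ∧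
      (∃ K : Set (EuclideanSpace ℝ (Fin d)), IsCompact K ∧ μ Kᶜ = 0) ∧
      kantorovichValue μ < ∞ ∧ ¬ HasOptimalMongePlan μ :=
  fun d hd => counterexample d hd

end Vale.Agent.Results.P121.CoulombMongeFails
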