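import Mathlib
import Vale.Agent.P121.Final

/-!
# P121: the three-marginal Coulomb problem without an optimal Monge plan, strong form
-/

open MeasureTheory
open scoped ENNReal NNReal

namespace Vale.Agent.Results.P121.NoOptimalMongePlan

/-- The space `ℝ^d` with the Euclidean norm. -/
abbrev Pt (d : ℕ) : Type := EuclideanSpace ℝ (Fin d)

/-- The Coulomb cost `1/|x-y| + 1/|x-z| + 1/|y-z|`, with values in `[0, ∞]` and value `∞` when two
of the points coincide (`edist` is the Euclidean distance, and `0⁻¹ = ∞` in `ℝ≥0∞`). -/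
noncomputable def cost {d : ℕ} (x y z : Pt d) : ℝ≥0∞ :=
  (edist x y)⁻¹ + (edist x z)⁻¹ + (edist y z)⁻¹

/-- `Π(μ, μ, μ)`: the Borel probability measures on `(ℝ^d)³` with all three marginals `μ`. -/
def Couplings {d : ℕ} (μ : Measure (Pt d)) : Set (Measure (Pt d × Pt d × Pt d)) :=
  {π | IsProbabilityMeasure π ∧ π.map (fun p => p.1) = μ ∧ π.map (fun p => p.2.1) = μ ∧
    π.map (fun p => p.2.2) = μ}

/-- The cost of a coupling. -/
noncomputable def couplingCost {d : ℕ} (π : Measure (Pt d × Pt d × Pt d)) : ℝ≥0∞ :=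
  ∫⁻ p, cost p.1 p.2.1 p.2.2 ∂π

/-- The Kantorovich value `E(μ)`. -/
noncomputable def kantorovich {d : ℕ} (μ : Measure (Pt d)) : ℝ≥0∞ :=
  ⨅ π ∈ Couplings μ, couplingCost π

/-- The pairs `(T₂, T₃)` of Borel maps that push `μ` forward to `μ`. -/
def MongePairs {d : ℕ} (μ : Measure (Pt d)) : Set ((Pt d → Pt d) × (Pt d → Pt d)) :=
  {T | Measurable T.1 ∧ Measurable T.2 ∧ μ.map T.1 = μ ∧ μ.map T.2 = μ}

/-- The cost of the Monge plan `(Id, T₂, T₃)_# μ`. -/
noncomputable def mongeCost {d : ℕ} (μ : Measure (Pt d)) (T : (Pt d → Pt d) × (Pt d → Pt d)) :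
    ℝ≥0∞ :=
  ∫⁻ x, cost x (T.1 x) (T.2 x) ∂μ

theorem density {d : ℕ} (μ : Measure (Pt d)) [IsProbabilityMeasure μ] (hac : μ ≪ volume)
    (C : ℝ≥0) (hC : μ ≤ C • volume) :
    ∃ ρ : Pt d → ℝ≥0∞, Measurable ρ ∧ (∀ x, ρ x ≤ C) ∧ μ = volume.withDensity ρ := by
  refine ⟨fun x => min (μ.rnDeriv volume x) C,
    (Measure.measurable_rnDeriv _ _).min measurable_const, fun x => min_le_right _ _, ?_⟩
  have h1 : μ.rnDeriv volume ≤ᵐ[volume] fun _ => (C : ℝ≥0∞) := by
    refine ae_le_of_forall_setLIntegral_le_of_sigmaFinite (Measure.measurable_rnDeriv _ _) ?_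
    intro s hs _
    rw [Measure.setLIntegral_rnDeriv hac, setLIntegral_const]
    calc μ s ≤ (C • (volume : Measure (Pt d))) s := hC s
      _ = (C : ℝ≥0∞) * volume s := by rw [Measure.smul_apply]; rfl
  conv_lhs => rw [← Measure.withDensity_rnDeriv_eq μ volume hac]
  refine withDensity_congr_ae ?_
  filter_upwards [h1] with x hx
  exact (min_eq_left hx).symm

theorem kant_le {d : ℕ} (μ : Measure (Pt d)) [IsProbabilityMeasure μ]
    {T : (Pt d → Pt d) × (Pt d → Pt d)} (hT : T ∈ MongePairs μ) :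
    kantorovich μ ≤ mongeCost μ T := by
  obtain ⟨h1, h2, h3, h4⟩ := hT
  have hm : Measurable (fun x : Pt d => (x, T.1 x, T.2 x)) :=
    measurable_id.prodMk (h1.prodMk h2)
  have hc : Measurable (fun p : Pt d × Pt d × Pt d => cost p.1 p.2.1 p.2.2) := by
    unfold cost
    have m1 : Measurable (fun p : Pt d × Pt d × Pt d => p.1) := measurable_fst
    have m2 : Measurable (fun p : Pt d × Pt d × Pt d => p.2.1) := measurable_fst.comp measurable_snd
    have m3 : Measurable (fun p : Pt d × Pt d × Pt d => p.2.2) := measurable_snd.comp measurable_snd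
    exact (((m1.edist m2).inv).add ((m1.edist m3).inv)).add ((m2.edist m3).inv)
  have hmem : μ.map (fun x : Pt d => (x, T.1 x, T.2 x)) ∈ Couplings μ := by
    refine ⟨Measure.isProbabilityMeasure_map hm.aemeasurable, ?_, ?_, ?_⟩
    · have e : (μ.map (fun x : Pt d => (x, T.1 x, T.2 x))).map
          (fun p : Pt d × Pt d × Pt d => p.1) = μ.map (fun x : Pt d => x) :=
        Measure.map_map measurable_fst hm
      exact e.trans Measure.map_id
    · have e : (μ.map (fun x : Pt d => (x, T.1 x, T.2 x))).map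
          (fun p : Pt d × Pt d × Pt d => p.2.1) = μ.map T.1 :=
        Measure.map_map (measurable_fst.comp measurable_snd) hm
      exact e.trans h3
    · have e : (μ.map (fun x : Pt d => (x, T.1 x, T.2 x))).map
          (fun p : Pt d × Pt d × Pt d => p.2.2) = μ.map T.2 :=
        Measure.map_map (measurable_snd.comp measurable_snd) hm
      exact e.trans h4
  refine (iInf₂_le _ hmem).trans (le_of_eq ?_)
  unfold couplingCost mongeCost
  rw [lintegral_map hc hm]

theorem strong (d : ℕ) (hd : 2 ≤ d) :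
    ∃ μ : Measure (Pt d), IsProbabilityMeasure μ ∧ μ ≪ volume ∧
      (∃ (C : ℝ≥0) (ρ : Pt d → ℝ≥0∞), Measurable ρ ∧ (∀ x, ρ x ≤ C) ∧
        μ = volume.withDensity ρ) ∧
      (∃ K : Set (Pt d), IsCompact K ∧ μ Kᶜ = 0) ∧
      kantorovich μ < ∞ ∧
      (∃ π ∈ Couplings μ, couplingCost π = kantorovich μ) ∧
      ∀ T ∈ MongePairs μ, kantorovich μ < mongeCost μ T := by
  classical
  let i : Fin d := ⟨0, by omega⟩
  let j : Fin d := ⟨1, by omega⟩
  have hij : i ≠ j := by
    intro h
    have := congrArg Fin.val h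
    simp [i, j] at this
  obtain ⟨S⟩ := Vale.Agent.P121.exists_setup (E := Pt d)
    (e := EuclideanSpace.single i (1 : ℝ)) (f := EuclideanSpace.single j (1 : ℝ)) (by simp)
    (by simp) (by simp [EuclideanSpace.inner_single_left, hij])
  obtain ⟨C, hC⟩ := S.mu_le (volume : Measure (Pt d))
  have hk : kantorovich (S.mu volume) = Vale.Agent.P121.kant (S.mu volume) := rfl
  have hac : S.mu (volume : Measure (Pt d)) ≪ volume :=
    Measure.absolutelyContinuous_of_le_smul (c := (C : ℝ≥0∞)) hC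
  have := S.mu_prob (volume : Measure (Pt d))
  obtain ⟨ρ, hρ1, hρ2, hρ3⟩ := density (S.mu volume) hac C hC
  refine ⟨S.mu volume, S.mu_prob volume, hac, ⟨C, ρ, hρ1, hρ2, hρ3⟩,
    ⟨S.D, S.D_compact, ?_⟩, ?_, ⟨S.pln volume, S.pln_cplg volume, ?_⟩, ?_⟩
  · have := S.mu_D (volume : Measure (Pt d))
    rw [ae_iff] at this
    exact this
  · rw [hk, S.kant_eq volume]
    exact lt_top_iff_ne_top.mpr (S.val_ne_top volume)
  · rw [hk, S.kant_eq volume]
    exact S.cost_pln volume
  · intro T hT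
    refine lt_of_le_of_ne (kant_le _ hT) ?_
    intro heq
    obtain ⟨h1, h2, h3, h4⟩ := hT
    exact S.no_monge volume h1 h2 h3 h4 heq.symm

/-- (1) Q1 is false: it is not true that every absolutely continuous Borel probability measure on
`ℝ³` with finite Kantorovich value admits an optimal Monge plan.
(2) In every dimension `d ≥ 2` there is a compactly supported probability measure with bounded
density and finite Kantorovich value, for which the Kantorovich problem has a minimiser but every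
Monge plan costs strictly more than the Kantorovich value. -/
theorem result :
    (¬ ∀ μ : Measure (Pt 3), IsProbabilityMeasure μ → μ ≪ volume → kantorovich μ < ∞ →
      ∃ T ∈ MongePairs μ, mongeCost μ T = kantorovich μ) ∧
    ∀ d : ℕ, 2 ≤ d →
      ∃ μ : Measure (Pt d), IsProbabilityMeasure μ ∧ μ ≪ volume ∧
        (∃ (C : ℝ≥0) (ρ : Pt d → ℝ≥0∞), Measurable ρ ∧ (∀ x, ρ x ≤ C) ∧
          μ = volume.withDensity ρ) ∧
        (∃ K : Set (Pt d), IsCompact K ∧ μ Kᶜ = 0) ∧
        kantorovich μ < ∞ ∧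
        (∃ π ∈ Couplings μ, couplingCost π = kantorovich μ) ∧
        ∀ T ∈ MongePairs μ, kantorovich μ < mongeCost μ T := by
  refine ⟨?_, strong⟩
  intro h
  obtain ⟨μ, h1, h2, -, -, h3, -, h4⟩ := strong 3 (by norm_num)
  obtain ⟨T, hT, hc⟩ := h μ h1 h2 h3
  exact (h4 T hT).ne hc.symm

end Vale.Agent.Results.P121.NoOptimalMongePlan
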